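import Vale.Agent.P242G.Stmt
import Vale.Agent.P242R.Main

/-! P242G Main (owner helper5): metrics on the whole space, reduced to the ball by scaling. -/

namespace Vale.Agent.P242

open MeasureTheory Set Metric Filter Topology
open scoped ENNReal ContDiff RealInnerProductSpace

variable {n : ℕ} {w : E n → ℝ}

theorem glo_form (hw : ContDiff ℝ ∞ w) (x v : E n) : ∑ i, ∑ j, ric (cm w) i j x * v i * v j =
    mu w x v v - ((n : ℝ) - 2) * (gsq w x * ‖v‖ ^ 2 - D v w x ^ 2) := by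
  have e : ∀ i j, ric (cm w) i j x * v i * v j =
      -((n : ℝ) - 2) * (pd i (pd j w) x * v i * v j) +
        ((n : ℝ) - 2) * ((v i * pd i w x) * (v j * pd j w x)) -
        (lap w x + ((n : ℝ) - 2) * ∑ l, pd l w x ^ 2) * (ric_d i j * (v i * v j)) := fun i j => by
    rw [ric_eq hw]
    ring
  simp only [e, Finset.sum_sub_distrib, Finset.sum_add_distrib, ← Finset.mul_sum, ric_sum,
    ← Finset.sum_mul]
  have h3 : ⟪v, v⟫ = ∑ i, v i ^ 2 := by
    rw [real_inner_self_eq_norm_sq, EuclideanSpace.real_norm_sq_eq]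
  have h4 : ∑ i, v i * v i = ∑ i, v i ^ 2 := Finset.sum_congr rfl fun i _ => (sq _).symm
  rw [mu, ric_D2 hw, h3, gsq, D_eq_sum, EuclideanSpace.real_norm_sq_eq, h4]
  ring

theorem glo_ric (h : GRic w) (o : E n) (l c : ℝ) : RicNN fun p => sc w o l p - c := by
  have hs := smooth_sc h.1 o l
  have hW : ContDiff ℝ ∞ fun p => sc w o l p - c := hs.sub contDiff_const
  have eD : ∀ v, D v (fun p => sc w o l p - c) = D v (sc w o l) := fun v =>
    funext fun x => by rw [D, D, fderiv_sub_const]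
  refine ⟨hW, fun x _ v => ?_⟩
  have e1 : mu (fun p => sc w o l p - c) x v v = mu (sc w o l) x v v := by
    rw [mu, mu, eD, lap_sub_const]
  have e2 : gsq (fun p => sc w o l p - c) x = gsq (sc w o l) x :=
    Finset.sum_congr rfl fun i _ => congrArg (· ^ 2) (congrFun (eD _) x)
  have h1 := h.2 (o + l • x) v
  rw [glo_form h.1] at h1
  rw [glo_form hW, e1, e2, eD, mu_sc h.1, gsq_sc h.1, D_sc h.1]
  have h2 := mul_nonneg (sq_nonneg l) h1
  simp only [sc]
  linarith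

theorem glo_len (w : E n → ℝ) (o : E n) {l : ℝ} (hl : 0 < l) (γ : ℝ → E n) (t : ℝ) :
    Real.exp (w (o + l • γ t)) * ‖deriv (fun t => o + l • γ t) t‖ =
      Real.exp (sc w o l (γ t) - -Real.log l) * ‖deriv γ t‖ := by
  rw [deriv_const_add, deriv_fun_const_smul_field, norm_smul, Real.norm_of_nonneg hl.le, sc,
    sub_neg_eq_add, Real.exp_add, Real.exp_log hl, mul_assoc]

theorem glo_lip {γ : ℝ → E n} {K : NNReal} (h : LipschitzOnWith K γ (Icc 0 1)) (o : E n) (l : ℝ) :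
    ∃ K', LipschitzOnWith K' (fun t => o + l • γ t) (Icc 0 1) := by
  obtain ⟨K', h'⟩ := ch2_lip h l
  exact ⟨K', fun x hx y hy => by rw [edist_add_left]; exact h' hx hy⟩

theorem glo_scale (w : E n → ℝ) (o : E n) {l : ℝ} (hl : 0 < l) (x y : E n) :
    gdist w (o + l • x) (o + l • y) = gdist (fun p => sc w o l p - -Real.log l) x y := by
  refine le_antisymm ?_ ?_
  · refine le_iInf₂ fun γ ⟨⟨K, hK⟩, e0, e1⟩ => iInf₂_le_of_le (fun t => o + l • γ t)
      ⟨glo_lip hK o l, by simp only [e0], by simp only [e1]⟩ (le_of_eq ?_)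
    exact lintegral_congr fun t => by rw [glo_len w o hl γ t]
  · refine le_iInf₂ fun γ ⟨⟨K, hK⟩, e0, e1⟩ => iInf₂_le_of_le (fun t => -(l⁻¹ • o) + l⁻¹ • γ t)
      ⟨glo_lip hK _ _, ?_, ?_⟩ (le_of_eq ?_)
    · simp only [e0, smul_add, neg_add_cancel_left, inv_smul_smul₀ hl.ne']
    · simp only [e1, smul_add, neg_add_cancel_left, inv_smul_smul₀ hl.ne']
    · refine lintegral_congr fun t => ?_
      have h := glo_len w o hl (fun t => -(l⁻¹ • o) + l⁻¹ • γ t) t
      simp only [smul_add, smul_neg, smul_inv_smul₀ hl.ne', add_neg_cancel_left] at h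
      rw [← h]

theorem glo_le (w : E n → ℝ) (x y : E n) : gdist w x y ≤ cdist w x y :=
  le_iInf₂ fun γ h => iInf₂_le_of_le γ ⟨h.1, h.2.2⟩ le_rfl

theorem glo_exit {s : ℝ≥0∞} (hin : ∀ z, gdist w 0 z < s → ‖z‖ < 1 / 2) {x y : E n} (hx : ‖x‖ ≤ 1)
    {b : ℝ≥0∞} (hb : ∀ L, s ≤ cdist w 0 x + L → b ≤ L) (hc : b ≤ cdist w x y) :
    b ≤ gdist w x y := by
  refine le_iInf₂ fun γ ⟨⟨K, hK⟩, e0, e1⟩ => ?_
  have hc' : ContinuousOn (fun t => ‖γ t‖) (Icc 0 1) := hK.continuousOn.norm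
  by_cases hm : ∀ t ∈ Icc (0 : ℝ) 1, ‖γ t‖ < 2
  · refine hc.trans (iInf₂_le_of_le γ ⟨⟨K, hK⟩, fun t ht => ?_, e0, e1⟩ le_rfl)
    exact mem_ball_zero_iff.2 (by linarith [hm t ht])
  · push Not at hm
    obtain ⟨t₀, ht₀, hm⟩ := hm
    have key : ∀ t ∈ Icc (0 : ℝ) 1, 2 ≤ ‖γ t‖ → ∃ s ∈ Icc 0 t, ‖γ s‖ = 2 := fun t ht h2 =>
      intermediate_value_Icc ht.1 (hc'.mono (Icc_subset_Icc_right ht.2))
        ⟨by simp only [e0]; linarith, h2⟩
    have h2 : IsCompact (Icc (0 : ℝ) 1 ∩ (fun t => ‖γ t‖) ⁻¹' {2}) :=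
      isCompact_Icc.of_isClosed_subset
        (hc'.preimage_isClosed_of_isClosed isClosed_Icc isClosed_singleton) inter_subset_left
    obtain ⟨s₀, hs₀, hs₁⟩ := key t₀ ht₀ hm
    obtain ⟨T, ⟨hT, hT'⟩, hl⟩ := h2.exists_isLeast ⟨s₀, ⟨hs₀.1, hs₀.2.trans ht₀.2⟩, hs₁⟩
    have hT'' : ‖γ T‖ = 2 := hT'
    have h3 : MapsTo γ (Icc 0 T) (ball 0 4) := fun t ht => by
      rw [mem_ball_zero_iff]
      by_contra h3
      obtain ⟨s, hs, hs'⟩ := key t ⟨ht.1, ht.2.trans hT.2⟩ (by linarith)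
      have h4 : T ≤ s := hl ⟨⟨hs.1, hs.2.trans (ht.2.trans hT.2)⟩, hs'⟩
      have h5 : t = T := le_antisymm ht.2 (h4.trans hs.2)
      rw [h5, hT''] at h3
      norm_num at h3
    have h4 := (cd_sub (w := w) hT.1 (hK.mono (Icc_subset_Icc_right hT.2)) h3).trans
      (lintegral_mono_set (Icc_subset_Icc_right hT.2))
    have h5 : s ≤ gdist w 0 (γ T) := not_lt.1 fun h => by linarith [hin _ h]
    rw [e0] at h4
    exact hb _ (h5.trans ((glo_le w _ _).trans ((cd_tri w 0 x _).trans (add_le_add le_rfl h4))))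

theorem glo_zero {s : ℝ≥0∞} (hin : ∀ z, gdist w 0 z < s → ‖z‖ < 1 / 2) {y : E n}
    (hy : gdist w 0 y < s) : cdist w 0 y = gdist w 0 y := by
  refine le_antisymm ?_ (glo_le w 0 y)
  have h := glo_exit hin (x := 0) (y := y) (by simp) (b := min s (cdist w 0 y))
    (fun L hL => by
      rw [cd_self w (mem_ball_self (by norm_num)), zero_add] at hL
      exact (min_le_left _ _).trans hL) (min_le_right _ _)
  exact (min_le_iff.1 h).resolve_left (not_le.2 hy)

theorem glo_eq {s : ℝ} (hs : 0 < s) (hin : ∀ z, gdist w 0 z < ENNReal.ofReal s → ‖z‖ < 1 / 2)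
    {x y : E n} (hx : cdist w 0 x < ENNReal.ofReal (s / 3))
    (hy : cdist w 0 y < ENNReal.ofReal (s / 3)) : cdist w x y = gdist w x y := by
  have h3 : ENNReal.ofReal (s / 3) ≤ ENNReal.ofReal s := ENNReal.ofReal_le_ofReal (by linarith)
  have h1 := hin x (((glo_le w 0 x).trans_lt hx).trans_le h3)
  refine le_antisymm (glo_exit hin (by linarith) (fun L hL => ?_) le_rfl) (glo_le w x y)
  have e : ENNReal.ofReal s =
      ENNReal.ofReal (s / 3) + (ENNReal.ofReal (s / 3) + ENNReal.ofReal (s / 3)) := by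
    rw [← ENNReal.ofReal_add (by positivity) (by positivity),
      ← ENNReal.ofReal_add (by positivity) (by positivity)]
    congr 1
    ring
  have h4 := hL.trans (add_le_add hx.le le_rfl)
  rw [e, ENNReal.add_le_add_iff_left ENNReal.ofReal_ne_top] at h4
  refine (cd_tri w x 0 y).trans (le_trans (add_le_add ?_ hy.le) h4)
  rw [cd_comm]
  exact hx.le

theorem glo_loc {X : Type} [MetricSpace X] {p : X} {o : E n} {f : E n → X} {s δ : ℝ} (hs : 0 < s)
    (h : GRic w) (hb : Bornology.IsBounded {x | gdist w o x < ENNReal.ofReal s})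
    (hA : GApprox w o f p s δ) :
    ∃ (W : E n → ℝ) (g : E n → X), RicNN W ∧ Inside W (s / 3) ∧ Approx W g p (s / 3) (2 * δ) := by
  obtain ⟨R, hR0, hR⟩ := hb.subset_ball_lt 0 o
  have hl : 0 < 2 * R := by linarith
  obtain ⟨W, hW⟩ : ∃ W, W = fun q => sc w o (2 * R) q - -Real.log (2 * R) := ⟨_, rfl⟩
  have sc0 : ∀ x y, gdist w (o + (2 * R) • x) (o + (2 * R) • y) = gdist W x y := fun x y =>
    hW ▸ glo_scale w o hl x y
  have sc1 : ∀ y, gdist w o (o + (2 * R) • y) = gdist W 0 y := fun y => by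
    rw [← sc0, smul_zero, add_zero]
  have hin : ∀ z, gdist W 0 z < ENNReal.ofReal s → ‖z‖ < 1 / 2 := fun z hz => by
    have h1 := hR (show gdist w o (o + (2 * R) • z) < ENNReal.ofReal s from sc1 z ▸ hz)
    rw [mem_ball, dist_eq_norm, add_sub_cancel_left, norm_smul, Real.norm_of_nonneg hl.le] at h1
    nlinarith
  have h3 : ENNReal.ofReal (s / 3) ≤ ENNReal.ofReal s := ENNReal.ofReal_le_ofReal (by linarith)
  have up : ∀ x, cdist W 0 x < ENNReal.ofReal (s / 3) → gdist W 0 x < ENNReal.ofReal s :=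
    fun x hx => ((glo_le W 0 x).trans_lt hx).trans_le h3
  have z0 : gdist W 0 0 = 0 :=
    le_antisymm ((glo_le W 0 0).trans (cd_self W (mem_ball_self (by norm_num))).le) zero_le
  have z1 : gdist w o o = 0 := by
    have := sc1 0
    rwa [smul_zero, add_zero, z0] at this
  have z2 : gdist w o o < ENNReal.ofReal s := z1 ▸ ENNReal.ofReal_pos.2 hs
  have hδ : 0 ≤ δ := (abs_nonneg _).trans (hA.2.1 o o z2 z2)
  refine ⟨W, fun q => f (o + (2 * R) • q), hW ▸ glo_ric h o _ _, fun x _ hx => hin x (up x hx),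
    by simp only [smul_zero, add_zero, hA.1], fun x _ y _ hx hy => ?_, fun q hq => ?_⟩
  · rw [glo_eq hs hin hx hy, ← sc0]
    exact (hA.2.1 _ _ (sc1 x ▸ up x hx) (sc1 y ▸ up y hy)).trans (by linarith)
  · rw [mem_ball] at hq
    obtain ⟨x, hx, hd⟩ := hA.2.2 q (mem_ball.2 (by linarith))
    obtain ⟨y, rfl⟩ : ∃ y, x = o + (2 * R) • y :=
      ⟨(2 * R)⁻¹ • (x - o), by rw [smul_inv_smul₀ hl.ne', add_sub_cancel]⟩
    have h1 := (abs_le.1 (hA.2.1 o _ z2 hx)).1
    rw [sc1] at hx h1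
    have h2 := dist_triangle_right p (f (o + (2 * R) • y)) q
    rw [hA.1] at h1
    rw [dist_comm p q] at h2
    refine ⟨y, mem_ball_zero_iff.2 (by linarith [hin y hx]), ?_, hd.trans (by linarith)⟩
    rw [glo_zero hin hx, ENNReal.lt_ofReal_iff_toReal_lt (ne_top_of_lt hx)]
    linarith

theorem main3 (n : ℕ) (hn : 3 ≤ n) (X : Type) [MetricSpace X] [ProperSpace X] (p : X) (s : ℝ)
    (w : ℕ → E n → ℝ) (o : ℕ → E n) (f : ℕ → E n → X) (δ : ℕ → ℝ) (hs : 0 < s)
    (hw : ∀ k, GRic (w k))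
    (hb : ∀ k, Bornology.IsBounded {x | gdist (w k) (o k) x < ENNReal.ofReal s})
    (hδ : Tendsto δ atTop (𝓝 0)) (hA : ∀ k, GApprox (w k) (o k) (f k) p s (δ k))
    (hR : Regular n p) : HasChart n p := by
  choose W g h1 h2 h3 using fun k => glo_loc hs (hw k) (hb k) (hA k)
  have h4 := hδ.const_mul 2
  rw [mul_zero] at h4
  exact (main2 n hn).2 X p (s / 3) W g (fun k => 2 * δ k) (by positivity) h1 h2 h4 h3 hR

end Vale.Agent.P242
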