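import Vale.Agent.P242R.Stmt

namespace Vale.Agent.P242

open MeasureTheory Set Metric
open scoped ENNReal ContDiff

variable {n : ℕ}

/-- Riemannian distance of `exp (2 w)` times the Euclidean metric on the whole space. -/
noncomputable def gdist (w : E n → ℝ) (x y : E n) : ℝ≥0∞ :=
  ⨅ (γ : ℝ → E n) (_ : (∃ K, LipschitzOnWith K γ (Icc 0 1)) ∧ γ 0 = x ∧ γ 1 = y),
    ∫⁻ t in Icc (0 : ℝ) 1, ENNReal.ofReal (Real.exp (w (γ t)) * ‖deriv γ t‖)

/-- Smooth conformal factor with nonnegative Ricci curvature on the whole space. -/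
def GRic (w : E n → ℝ) : Prop :=
  ContDiff ℝ ∞ w ∧ ∀ x v : E n, 0 ≤ ∑ i, ∑ j, ric (cm w) i j x * v i * v j

/-- `f` is a pointed Gromov-Hausdorff `δ`-approximation from the Riemannian ball of radius `s`
about `o` to the ball about `p`. -/
def GApprox {X : Type} [MetricSpace X] (w : E n → ℝ) (o : E n) (f : E n → X) (p : X) (s δ : ℝ) :
    Prop :=
  f o = p ∧
    (∀ x y, gdist w o x < ENNReal.ofReal s → gdist w o y < ENNReal.ofReal s →
      |dist (f x) (f y) - (gdist w x y).toReal| ≤ δ) ∧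
    ∀ q ∈ ball p (s - δ), ∃ x, gdist w o x < ENNReal.ofReal s ∧ dist (f x) q ≤ δ

end Vale.Agent.P242
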